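import Vale.Agent.P195.Final
import Vale.Agent.P195.Weyl

namespace Vale.Agent.Results.P195.Counterexample

open CategoryTheory

/-- There are a finite-dimensional algebra `R` over the rationals and a finitely generated left
`R`-module `M` with `Ext^i(M, M ⊕ R) = 0` for every `i ≥ 1` such that `M` is not projective. -/
theorem result : ∃ (R : Type) (_ : Ring R) (_ : Algebra ℚ R) (_ : Module.Finite ℚ R)
    (M : Type) (_ : AddCommGroup M) (_ : Module R M) (_ : Module.Finite R M),
    (∀ i : ℕ, 1 ≤ i →
      Subsingleton (Abelian.Ext (ModuleCat.of R M) (ModuleCat.of R (M × R)) i)) ∧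
    ¬ Module.Projective R M := by
  obtain ⟨W, _, _, ⟨D⟩⟩ := Vale.Agent.P195.exists_wdata
  refine ⟨D.R, inferInstance, inferInstance, Vale.Agent.P195.WData.R_finite,
    D.F.obj (D.P (-2, 2)), inferInstance, inferInstance,
    Vale.Agent.P195.WData.F_finite (Vale.Agent.P195.WData.lf_P _), fun i hi => ?_, fun h => ?_⟩
  · obtain ⟨n, rfl⟩ : ∃ n, i = n + 1 := ⟨i - 1, by omega⟩
    have h := Vale.Agent.P195.Van.c2'
      (Vale.Agent.P195.ses_pr2 (D.F.obj (D.P (-2, 2))) (ModuleCat.of D.R D.R)).2
      (Vale.Agent.P195.WData.nullPos_M_self n) (Vale.Agent.P195.WData.nullPos_M_R n)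
    exact ⟨fun a b => (h a).trans (h b).symm⟩
  · exact Vale.Agent.P195.WData.not_projective
      ((IsProjective.iff_projective (D.F.obj (D.P (-2, 2)))).1 h)

end Vale.Agent.Results.P195.Counterexample
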